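import Vale.Agent.P224.R2.H797.Unit
import Vale.Agent.P224.R2.H458.T28.Rows
import Vale.Agent.P224.R2.H458.T28.El
import Vale.Agent.P224.R2.H458.T28.DF0
import Vale.Agent.P224.R2.H458.T28.DF1

/-!
Certificate in dimension 28: the identity and the pointwise inequality.
-/

namespace Vale.Agent.P224.R2.H458.T28

open Vale.Agent.P224.UE Vale.Agent.P224.POS Vale.Agent.P224.PO Vale.Agent.P224.R2.H797
open scoped RealInnerProductSpace

noncomputable section

/-- the blocks with the multiplier `1` -/
def B1 : List BlkX := [⟨els0, 4722366482869645213696, N0⟩,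
  ⟨els1, 2361183241434822606848, N1⟩,
  ⟨els2, 4722366482869645213696, N2⟩,
  ⟨els3, 2361183241434822606848, N3⟩,
  ⟨els4, 37778931862957161709568, N4⟩,
  ⟨els5, 9444732965739290427392, N5⟩,
  ⟨els6, 18889465931478580854784, N6⟩,
  ⟨els7, 9444732965739290427392, N7⟩]

/-- the blocks with the multiplier `rr` -/
def Br : List BlkX := []

/-- the integers replacing the first four variables (not powers of two: the kernel hashes a numeral
by its last 64 bits) -/
def Ms : List Nat := [
  Nat.add (Nat.pow 2 99) 351023122495932353,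
  Nat.add (Nat.pow 2 3254) 2760237558339759929,
  Nat.add (Nat.pow 2 17343) 2793480555814463789,
  Nat.add (Nat.pow 2 87788) 399980457155986847]

set_option maxRecDepth 100000 in
/-- **The identity**, checked by the kernel. -/
theorem idM : chkX Ms (PE.sb sbU P) 8 tabU (mulU B1 Br) = true := by
  decide +kernel

lemma hB1 : GoodX B1 :=
  (goodX_cons psd0 (goodX_cons psd1 (goodX_cons psd2 (goodX_cons psd3 (goodX_cons psd4 (goodX_cons psd5 (goodX_cons psd6 (goodX_cons psd7 goodX_nil))))))))

lemma hBr : GoodX Br :=
  goodX_nil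

/-- **The pointwise inequality of the certificate.** -/
theorem hpos {E : Type*} [NormedAddCommGroup E] [InnerProductSpace ℝ E] (v x N y w : E)
    (hv : ‖v‖ = 1) (hx : ‖x‖ = 1) (hN : ‖N‖ = 1) (hy : ‖y‖ = 1) (hw : ‖w‖ = 1)
    (hxN : ⟪x, N⟫ = 0) (hyw : ⟪y, w⟫ = 0) (hs : ⟪x, y⟫ < 1) :
    0 ≤ Vale.Agent.P224.UE.W9 (12989656552350447664 / 18446744073709551616) (6351029471592413720 / 18446744073709551616) (-3597305619152310432 / 18446744073709551616) (0 / 18446744073709551616) (261251969892759064 / 18446744073709551616) (116536034010303136 / 18446744073709551616) (0 / 18446744073709551616) (0 / 18446744073709551616) (0 / 18446744073709551616) (dv x N y w v)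
      + hsum 28 (rlH 18446744073709551616 rows) (dv x N y w v) :=
  pos_of hs (nonneg_of_chkU 8 (by norm_num) idM rfl hB1 hBr hv hx hN hy hw hxN hyw hs)

end

end Vale.Agent.P224.R2.H458.T28
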